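import Vale.Agent.P181.Defs

/-! Generalities on symmetric powers: polarization and nondegeneracy. -/

namespace Vale.Agent.P181

open scoped TensorProduct
open SymmetricPower

variable {K : Type} [Field K]
variable {M : Type*} [AddCommGroup M] [Module K M]
variable {N : Type*} [AddCommGroup N] [Module K N]
variable {S : Type*} [CommRing S] [Algebra K S]

/-- The linear map `Sym^n M → N` induced by a symmetric multilinear map `M^n → N`. -/
noncomputable def symLift {n : ℕ} (f : MultilinearMap K (fun _ : Fin n => M) N)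
    (hf : ∀ (e : Equiv.Perm (Fin n)) (v : Fin n → M), f (fun i => v (e i)) = f v) :
    SymmetricPower K (Fin n) M →ₗ[K] N := Classical.choose (exists_symLift f hf)

@[simp] theorem symLift_tprod {n : ℕ} (f : MultilinearMap K (fun _ : Fin n => M) N)
    (hf : ∀ (e : Equiv.Perm (Fin n)) (v : Fin n → M), f (fun i => v (e i)) = f v)
    (v : Fin n → M) : symLift f hf (SymmetricPower.tprod K v) = f v :=
  Classical.choose_spec (exists_symLift f hf) v

@[simp] theorem symMap_tprod (n : ℕ) (g : M →ₗ[K] N) (v : Fin n → M) :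
    symMap n g (SymmetricPower.tprod K v) = SymmetricPower.tprod K fun i => g (v i) :=
  symMap_sprod n g v

theorem sym_ext_of_span {n : ℕ} {γ : Type*} (p : γ → M)
    (hp : Submodule.span K (Set.range p) = ⊤) {f g : SymmetricPower K (Fin n) M →ₗ[K] N}
    (h : ∀ j : Fin n → γ, f (tprod K fun i => p (j i)) = g (tprod K fun i => p (j i))) :
    f = g := by
  have h1 : f.compMultilinearMap (tprod K) = g.compMultilinearMap (tprod K) :=
    MultilinearMap.ext_of_span_eq_top (γ := fun _ => γ) (g := fun _ j => p j) (fun _ => hp) h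
  refine LinearMap.ext_on (span_tprod_eq_top K (Fin n) M) ?_
  rintro _ ⟨v, rfl⟩
  exact DFunLike.congr_fun h1 v

theorem sym_ext {n : ℕ} {f g : SymmetricPower K (Fin n) M →ₗ[K] N}
    (h : ∀ v : Fin n → M, f (tprod K v) = g (tprod K v)) : f = g := by
  refine LinearMap.ext_on (span_tprod_eq_top K (Fin n) M) ?_
  rintro _ ⟨v, rfl⟩
  exact h v

theorem sym_sym_ext {a b : ℕ}
    {f g : SymmetricPower K (Fin a) (SymmetricPower K (Fin b) M) →ₗ[K] N}
    (h : ∀ v : Fin a → Fin b → M, f (tprod K fun i => tprod K fun j => v i j) =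
      g (tprod K fun i => tprod K fun j => v i j)) : f = g :=
  sym_ext_of_span (fun v : Fin b → M => tprod K v) (span_tprod_eq_top K (Fin b) M) h

theorem span_of_span {n : ℕ} {γ : Type*} (p : γ → M)
    (hp : Submodule.span K (Set.range p) = ⊤) :
    Submodule.span K (Set.range fun j : Fin n → γ => tprod K fun i => p (j i)) = ⊤ := by
  rw [← (Submodule.span K _).ker_mkQ, LinearMap.ker_eq_top]
  refine sym_ext_of_span p hp fun j => ?_
  simp only [Submodule.mkQ_apply, LinearMap.zero_apply, Submodule.Quotient.mk_eq_zero]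
  exact Submodule.subset_span ⟨j, rfl⟩

theorem polarization [CharZero K] {n : ℕ} (f : MultilinearMap K (fun _ : Fin n => M) K)
    (hf : ∀ (e : Equiv.Perm (Fin n)) (v : Fin n → M), f (fun i => v (e i)) = f v)
    (h : ∀ v : M, f (fun _ => v) = 0) (v : Fin n → M) : f v = 0 := by
  classical
  let P : MvPolynomial (Fin n) K :=
    ∑ r : Fin n → Fin n, MvPolynomial.monomial (∑ i, Finsupp.single (r i) 1) (f fun i => v (r i))
  have hP : P = 0 := by
    apply MvPolynomial.funext
    intro t
    have h1 := h (∑ j, t j • v j)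
    rw [MultilinearMap.map_sum] at h1
    simp only [P, map_sum, map_zero]
    rw [← h1]
    refine Finset.sum_congr rfl fun r _ => ?_
    rw [MultilinearMap.map_smul_univ, MvPolynomial.eval_monomial, smul_eq_mul, mul_comm]
    congr 1
    rw [← Finsupp.prod_finsetSum_index (by simp) (by intros; ring)]
    simp
  have hc : MvPolynomial.coeff (∑ i, Finsupp.single i 1) P =
      ((Finset.univ.filter fun r : Fin n → Fin n =>
        (∑ i, Finsupp.single (r i) 1 : Fin n →₀ ℕ) = ∑ i, Finsupp.single i 1).card : K) * f v := by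
    simp only [P, MvPolynomial.coeff_sum, MvPolynomial.coeff_monomial]
    rw [← Finset.sum_filter, ← nsmul_eq_mul, ← Finset.sum_const]
    refine Finset.sum_congr rfl fun r hr => ?_
    have hr' := (Finset.mem_filter.1 hr).2
    have hs : Function.Surjective r := by
      intro j
      by_contra hj
      push Not at hj
      have := DFunLike.congr_fun hr' j
      simp [Finsupp.finsetSum_apply, Finsupp.single_apply, hj] at this
    exact hf (Equiv.ofBijective r (Finite.surjective_iff_bijective.1 hs)) v
  rw [hP, MvPolynomial.coeff_zero] at hc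
  have hne : ((Finset.univ.filter fun r : Fin n → Fin n =>
        (∑ i, Finsupp.single (r i) 1 : Fin n →₀ ℕ) = ∑ i, Finsupp.single i 1).card : K) ≠ 0 := by
    rw [Nat.cast_ne_zero, ← Nat.pos_iff_ne_zero, Finset.card_pos]
    exact ⟨id, by simp⟩
  exact (mul_eq_zero.1 hc.symm).resolve_left hne

theorem span_pure [CharZero K] (n : ℕ) :
    Submodule.span K (Set.range fun v : M => tprod K fun _ : Fin n => v) = ⊤ := by
  by_contra hne
  obtain ⟨φ, hφ, hU⟩ := Submodule.exists_dual_map_eq_bot_of_lt_top (lt_top_iff_ne_top.2 hne)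
    inferInstance
  apply hφ
  refine sym_ext fun v => ?_
  refine polarization (φ.compMultilinearMap (tprod K)) (fun e v => ?_) (fun w => ?_) v
  · simp
  · have : φ (tprod K fun _ : Fin n => w) ∈ Submodule.map φ
        (Submodule.span K (Set.range fun v : M => tprod K fun _ : Fin n => v)) :=
      Submodule.mem_map_of_mem (Submodule.subset_span ⟨w, rfl⟩)
    rw [hU] at this
    simpa using this

/-- `v₁ ⋯ vₙ ↦ ∏ y vᵢ`. -/
noncomputable def powMap (n : ℕ) (y : M →ₗ[K] S) : SymmetricPower K (Fin n) M →ₗ[K] S :=
  symLift ((MultilinearMap.mkPiAlgebra K (Fin n) S).compLinearMap fun _ => y) (by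
    intro e v
    simp only [MultilinearMap.compLinearMap_apply, MultilinearMap.mkPiAlgebra_apply]
    exact Equiv.prod_comp e fun i => y (v i))

@[simp] theorem powMap_tprod (n : ℕ) (y : M →ₗ[K] S) (v : Fin n → M) :
    powMap n y (tprod K v) = ∏ i, y (v i) := by
  simp [powMap]

theorem perm_sum_comm {n : ℕ} (g : Fin n → Fin n → S) (e : Equiv.Perm (Fin n)) :
    ∑ σ : Equiv.Perm (Fin n), ∏ i, g (e i) (σ i) =
      ∑ σ : Equiv.Perm (Fin n), ∏ i, g (σ i) i := by
  refine Fintype.sum_equiv ((Equiv.inv _).trans (Equiv.mulLeft e)) _ _ fun σ => ?_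
  rw [← Equiv.prod_comp σ (fun i => g _ i)]
  simp

theorem perm_sum_comm' {n : ℕ} (g : Fin n → Fin n → S) (e : Equiv.Perm (Fin n)) :
    ∑ σ : Equiv.Perm (Fin n), ∏ i, g (σ i) (e i) =
      ∑ σ : Equiv.Perm (Fin n), ∏ i, g (σ i) i := by
  refine Fintype.sum_equiv (Equiv.mulRight e⁻¹) _ _ fun σ => ?_
  rw [← Equiv.prod_comp e (fun i => g _ i)]
  simp

/-- `v₁ ⋯ vₙ ↦ ∑ σ, ∏ y (σ i) vᵢ`. -/
noncomputable def permMap {n : ℕ} (y : Fin n → M →ₗ[K] S) :
    SymmetricPower K (Fin n) M →ₗ[K] S :=
  symLift (∑ σ : Equiv.Perm (Fin n),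
    (MultilinearMap.mkPiAlgebra K (Fin n) S).compLinearMap fun i => y (σ i)) (by
    intro e v
    simp only [sum_apply, MultilinearMap.compLinearMap_apply,
      MultilinearMap.mkPiAlgebra_apply]
    exact perm_sum_comm' (fun i j => y i (v j)) e)

@[simp] theorem permMap_tprod {n : ℕ} (y : Fin n → M →ₗ[K] S) (v : Fin n → M) :
    permMap y (tprod K v) = ∑ σ : Equiv.Perm (Fin n), ∏ i, y (σ i) (v i) := by
  simp [permMap]

/-- symmetrization -/
noncomputable def symz (n : ℕ) : SymmetricPower K (Fin n) M →ₗ[K] ⨂[K] _ : Fin n, M :=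
  symLift (∑ σ : Equiv.Perm (Fin n), (PiTensorProduct.tprod K).domDomCongr σ) (by
    intro e v
    simp only [sum_apply, MultilinearMap.domDomCongr_apply]
    exact Fintype.sum_equiv (Equiv.mulLeft e) _ _ fun σ => by simp)

@[simp] theorem symz_tprod (n : ℕ) (v : Fin n → M) :
    symz n (tprod K v) = ∑ σ : Equiv.Perm (Fin n), PiTensorProduct.tprod K fun i => v (σ i) := by
  simp [symz]

theorem mk_symz (n : ℕ) (F : SymmetricPower K (Fin n) M) :
    SymmetricPower.mk K (Fin n) M (symz n F) = (n.factorial : K) • F := by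
  have : SymmetricPower.mk K (Fin n) M ∘ₗ symz n = (n.factorial : K) • LinearMap.id := by
    refine sym_ext fun v => ?_
    simp only [LinearMap.comp_apply, symz_tprod, map_sum, LinearMap.smul_apply, LinearMap.id_apply]
    have : ∀ σ : Equiv.Perm (Fin n), SymmetricPower.mk K (Fin n) M
        (PiTensorProduct.tprod K fun i => v (σ i)) = tprod K v := fun σ => tprod_equiv σ v
    simp only [this, Finset.sum_const, Finset.card_univ, Fintype.card_perm, Fintype.card_fin]
    rw [Nat.cast_smul_eq_nsmul]
  exact DFunLike.congr_fun this F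

/-- the multilinear form `ξ ↦ permMap ξ F`. -/
noncomputable def permForm {n : ℕ} (F : SymmetricPower K (Fin n) M) :
    MultilinearMap K (fun _ : Fin n => Module.Dual K M) K :=
  ((PiTensorProduct.dualDistrib (R := K) (M := fun _ : Fin n => M)).flip
    (symz n F)).compMultilinearMap (PiTensorProduct.tprod K)

theorem permForm_apply {n : ℕ} (F : SymmetricPower K (Fin n) M) (ξ : Fin n → Module.Dual K M) :
    permForm F ξ = permMap (S := K) ξ F := by
  have : PiTensorProduct.dualDistrib (PiTensorProduct.tprod K ξ) ∘ₗ symz n =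
      permMap (S := K) ξ := by
    refine sym_ext fun v => ?_
    simp only [LinearMap.comp_apply, symz_tprod, map_sum, PiTensorProduct.dualDistrib_apply,
      permMap_tprod]
    exact perm_sum_comm (fun i j => ξ i (v j)) 1
  exact DFunLike.congr_fun this F

theorem eq_zero_of_permMap [CharZero K] [FiniteDimensional K M] {n : ℕ} {γ : Type*}
    (p : γ → Module.Dual K M) (hp : ∀ z : M, z ≠ 0 → ∃ j, p j z ≠ 0)
    (F : SymmetricPower K (Fin n) M)
    (h : ∀ j : Fin n → γ, permMap (S := K) (fun i => p (j i)) F = 0) : F = 0 := by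
  have hsp : Submodule.span K (Set.range p) = ⊤ :=
    Submodule.span_eq_top_of_ne_zero fun z hz => by
      obtain ⟨j, hj⟩ := hp z hz
      exact ⟨p j, ⟨j, rfl⟩, hj⟩
  have h0 : permForm F = 0 :=
    MultilinearMap.ext_of_span_eq_top (γ := fun _ => γ) (g := fun _ j => p j) (fun _ => hsp)
      fun j => by rw [permForm_apply]; simpa using h j
  have hT : symz n F = 0 := by
    let b := Module.finBasis K M
    let B := Basis.piTensorProduct (fun _ : Fin n => b)
    refine B.ext_elem fun q => ?_
    have : B.coord q = PiTensorProduct.dualDistrib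
        (PiTensorProduct.tprod K fun i => b.coord (q i)) := by
      ext m
      simp [B]
    have h1 := DFunLike.congr_fun this (symz n F)
    have h2 := DFunLike.congr_fun h0 (fun i => b.coord (q i))
    simp only [permForm, LinearMap.compMultilinearMap_apply, LinearMap.flip_apply,
      zero_apply] at h2
    rw [h2] at h1
    simpa using h1
  have := mk_symz n F
  rw [hT, map_zero] at this
  exact (smul_eq_zero.1 this.symm).resolve_left (by exact_mod_cast n.factorial_ne_zero)

instance symFinite [FiniteDimensional K M] (n : ℕ) :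
    FiniteDimensional K (SymmetricPower K (Fin n) M) :=
  Module.Finite.of_surjective (SymmetricPower.mk K (Fin n) M)
    (LinearMap.range_eq_top.1 (range_mk K (Fin n) M))

theorem exists_powMap_ne_zero [CharZero K] [FiniteDimensional K M] {n : ℕ}
    (z : SymmetricPower K (Fin n) M) (hz : z ≠ 0) :
    ∃ ξ : Module.Dual K M, powMap (S := K) n ξ z ≠ 0 := by
  by_contra hcon
  push Not at hcon
  apply hz
  refine eq_zero_of_permMap (fun ξ : Module.Dual K M => ξ) (fun y hy => ?_) z fun ξ => ?_
  · by_contra h
    push Not at h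
    exact hy ((Module.forall_dual_apply_eq_zero_iff K y).1 h)
  · rw [← permForm_apply]
    refine polarization (permForm z) (fun e ζ => ?_) (fun ζ => ?_) ξ
    · rw [permForm_apply, permForm_apply]
      have : permMap (S := K) (fun i => ζ (e i)) = permMap (S := K) ζ := by
        refine sym_ext fun v => ?_
        simp only [permMap_tprod]
        exact Fintype.sum_equiv (Equiv.mulLeft e) _ _ fun σ => by simp
      rw [this]
    · rw [permForm_apply]
      have : permMap (S := K) (fun _ : Fin n => ζ) = (n.factorial : K) • powMap (S := K) n ζ := by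
        refine sym_ext fun v => ?_
        simp [Fintype.card_perm]
      rw [this, LinearMap.smul_apply, hcon, smul_zero]

end Vale.Agent.P181
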