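import Vale.Agent.P181.Core2

/-! The main inclusion: symmetrized pure powers lie in the span of products of norms. -/

open Polynomial

namespace Vale.Agent.P181

universe v

variable {K : Type*} [Field K] [CharZero K]
variable {W : Type*} [AddCommGroup W] [Module K W]

section
variable {S : Type*} [CommRing S] [Algebra K S]

/-- span of the symmetrized products of pure `b`-th powers. -/
def symSpan {a : ℕ} (x : Fin a → W →ₗ[K] S) (b : ℕ) : Submodule K S :=
  Submodule.span K (Set.range fun u : Fin a → W =>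
    ∑ σ : Equiv.Perm (Fin a), ∏ i, x (σ i) (u i) ^ b)

omit [CharZero K] in
theorem prod_mem_prod' {ι : Type*} (s : Finset ι) (M : ι → Submodule K S) (f : ι → S)
    (h : ∀ i ∈ s, f i ∈ M i) : ∏ i ∈ s, f i ∈ ∏ i ∈ s, M i := by
  classical
  induction s using Finset.induction_on with
  | empty => simp only [Finset.prod_empty]; exact Submodule.one_le.1 le_rfl
  | insert k s hk ih =>
    rw [Finset.prod_insert hk, Finset.prod_insert hk]
    exact Submodule.mul_mem_mul (h k (by simp)) (ih fun i hi => h i (by simp [hi]))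

theorem prod_range_pow_le {ι : Type*} [Fintype ι] (x : ι → W →ₗ[K] S) (d : ℕ) :
    ∏ i, (LinearMap.range (x i)) ^ d ≤
      Submodule.span K (Set.range fun u : ι → W => ∏ i, x i (u i) ^ d) := by
  refine le_trans (Finset.prod_le_prod' fun i _ => range_pow_le_span (x i) d) ?_
  rw [Submodule.prod_span, Submodule.span_le]
  intro y hy
  rw [Set.mem_fintype_prod] at hy
  obtain ⟨g, hg, rfl⟩ := hy
  choose u hu using hg
  apply Submodule.subset_span
  exact ⟨u, Finset.prod_congr rfl fun i _ => hu i⟩

/-- sum of the coordinates -/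
def sumMap (K : Type*) [Field K] (S : Type*) [CommRing S] [Algebra K S] (J : Type*) [Fintype J] :
    (J → S) →ₗ[K] S := ∑ j, LinearMap.proj j

omit [CharZero K] in
@[simp] theorem sumMap_apply {J : Type*} [Fintype J] (f : J → S) :
    sumMap K S J f = ∑ j, f j := by
  simp [sumMap]

theorem step_one {a : ℕ} (x : Fin a → W →ₗ[K] S) (c d : ℕ) (hd : a * c ≤ d + c) :
    symSpan x (d + c) ≤ normSpan Finset.univ x c * symSpan x d := by
  let y : Fin a → W →ₗ[K] (Equiv.Perm (Fin a) → S) := fun i => LinearMap.pi fun σ => x (σ i)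
  have h1 := contraction Finset.univ y c d (by simpa using hd)
  have h2 := le_trans h1 (mul_le_mul_right (prod_range_pow_le y d) _)
  have h3 : normSpan Finset.univ y c *
      Submodule.span K (Set.range fun u : Fin a → W => ∏ i, y i (u i) ^ d) ≤
      (normSpan Finset.univ x c * symSpan x d).comap (sumMap K S (Equiv.Perm (Fin a))) := by
    rw [normSpan, Submodule.span_mul_span, Submodule.span_le]
    rintro _ ⟨_, ⟨w, rfl⟩, _, ⟨u, rfl⟩, rfl⟩
    simp only [SetLike.mem_coe, Submodule.mem_comap, sumMap_apply]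
    have : ∑ σ : Equiv.Perm (Fin a), ((∏ i, y i w) ^ c * ∏ i, y i (u i) ^ d) σ =
        (∏ i, x i w) ^ c * ∑ σ : Equiv.Perm (Fin a), ∏ i, x (σ i) (u i) ^ d := by
      rw [Finset.mul_sum]
      refine Finset.sum_congr rfl fun σ _ => ?_
      simp only [y, Pi.mul_apply, Pi.pow_apply, Finset.prod_apply, LinearMap.pi_apply]
      rw [Equiv.prod_comp σ (fun i => x i w)]
    rw [this]
    exact Submodule.mul_mem_mul (Submodule.subset_span ⟨w, rfl⟩) (Submodule.subset_span ⟨u, rfl⟩)
  rw [symSpan, Submodule.span_le]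
  rintro _ ⟨u, rfl⟩
  have h4 : ∏ i, y i (u i) ^ (d + c) ∈ ∏ i, (LinearMap.range (y i)) ^ (d + c) :=
    prod_mem_prod' _ _ _ fun i _ => Submodule.pow_mem_pow _ (LinearMap.mem_range_self _ _) _
  have h5 := h3 (h2 h4)
  simp only [Submodule.mem_comap, sumMap_apply] at h5
  simpa [y] using h5

/-- `Z^(d+m) B'^d ≤ B^d Z^m`. -/
theorem root_pow {m : ℕ} (y : Fin m → W →ₗ[K] S) (z : W →ₗ[K] S) (d : ℕ) :
    (normSpan Finset.univ y 1) ^ d * (LinearMap.range z) ^ (d + m) ≤
      (Submodule.span K (Set.range fun w => (∏ i, y i w) * z w)) ^ d *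
        (LinearMap.range z) ^ m := by
  have h := root_reduction (K := K) (fun w => (∏ i, y i w) ^ 1) m 1
    (by simpa using norm_poly Finset.univ y 1) z
  simp only [pow_one] at h
  have hB : normSpan Finset.univ y 1 = Submodule.span K (Set.range fun w => ∏ i, y i w) := by
    simp [normSpan]
  rw [hB]
  induction d with
  | zero => simp
  | succ d ih =>
    calc Submodule.span K (Set.range fun w => ∏ i, y i w) ^ (d + 1) *
          (LinearMap.range z) ^ (d + 1 + m)
        = (Submodule.span K (Set.range fun w => ∏ i, y i w) ^ d *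
          (LinearMap.range z) ^ (d + m)) * (Submodule.span K (Set.range fun w => ∏ i, y i w) *
            LinearMap.range z) := by ring
      _ ≤ (Submodule.span K (Set.range fun w => (∏ i, y i w) * z w) ^ d *
          (LinearMap.range z) ^ m) * (Submodule.span K (Set.range fun w => ∏ i, y i w) *
            LinearMap.range z) := mul_le_mul_left ih _
      _ = Submodule.span K (Set.range fun w => (∏ i, y i w) * z w) ^ d *
          (Submodule.span K (Set.range fun w => ∏ i, y i w) *
            (LinearMap.range z) ^ (m + 1)) := by ring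
      _ ≤ Submodule.span K (Set.range fun w => (∏ i, y i w) * z w) ^ d *
          (Submodule.span K (Set.range fun w => (∏ i, y i w) * z w) *
            (LinearMap.range z) ^ m) := mul_le_mul_right h _
      _ = _ := by ring

end

section
variable {S : Type*} [CommRing S] [Algebra K S]

/-- the universal root -/
def rootZ {m : ℕ} (x : Fin (m + 1) → W →ₗ[K] S) : W →ₗ[K] (Fin (m + 1) → S) :=
  LinearMap.pi fun k => x k

/-- the remaining roots -/
def rootY {m : ℕ} (x : Fin (m + 1) → W →ₗ[K] S) : Fin m → W →ₗ[K] (Fin (m + 1) → S) :=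
  fun j => LinearMap.pi fun k => x (Equiv.swap 0 k j.succ)

omit [CharZero K] in
theorem rootY_prod {m : ℕ} (x : Fin (m + 1) → W →ₗ[K] S) (w : W) (k : Fin (m + 1)) :
    (∏ j, rootY x j w) k = ∏ j ∈ Finset.univ.erase k, x j w := by
  simp only [rootY, Finset.prod_apply, LinearMap.pi_apply]
  refine Finset.prod_bij (fun j _ => Equiv.swap 0 k j.succ) ?_ ?_ ?_ ?_
  · intro j _
    simp only [Finset.mem_erase, Finset.mem_univ, and_true]
    intro h
    have : Equiv.swap 0 k j.succ = Equiv.swap 0 k 0 := by rw [h, Equiv.swap_apply_left]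
    exact Fin.succ_ne_zero j ((Equiv.swap 0 k).injective this)
  · intro j _ j' _ h
    exact Fin.succ_injective _ ((Equiv.swap 0 k).injective h)
  · intro i hi
    simp only [Finset.mem_erase, Finset.mem_univ, and_true] at hi
    have : Equiv.swap 0 k i ≠ 0 := by
      intro h
      have : Equiv.swap 0 k i = Equiv.swap 0 k k := by rw [h, Equiv.swap_apply_right]
      exact hi ((Equiv.swap 0 k).injective this)
    obtain ⟨j, hj⟩ := Fin.exists_succ_eq.2 this
    exact ⟨j, Finset.mem_univ _, by simp [hj]⟩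
  · intro j _; rfl

omit [CharZero K] in
theorem rootY_mul_rootZ {m : ℕ} (x : Fin (m + 1) → W →ₗ[K] S) (w : W) :
    (∏ j, rootY x j w) * rootZ x w = fun _ => ∏ i, x i w := by
  funext k
  rw [Pi.mul_apply, rootY_prod, mul_comm]
  simp only [rootZ, LinearMap.pi_apply]
  exact Finset.mul_prod_erase Finset.univ (fun i => x i w) (Finset.mem_univ k)

omit [CharZero K] in
theorem step_two {m : ℕ} (x : Fin (m + 1) → W →ₗ[K] S) (d : ℕ) :
    symSpan x d ≤ (symSpan (rootY x) d * (LinearMap.range (rootZ x)) ^ d).map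
      (sumMap K S (Fin (m + 1))) := by
  rw [symSpan, Submodule.span_le]
  rintro _ ⟨u, rfl⟩
  refine ⟨(∑ τ : Equiv.Perm (Fin m), ∏ j, rootY x (τ j) (u j.succ) ^ d) * rootZ x (u 0) ^ d,
    Submodule.mul_mem_mul (Submodule.subset_span ⟨fun j => u j.succ, rfl⟩)
      (Submodule.pow_mem_pow _ (LinearMap.mem_range_self _ _) _), ?_⟩
  simp only [sumMap_apply]
  rw [← Equiv.sum_comp Equiv.Perm.decomposeFin.symm, Fintype.sum_prod_type]
  refine Finset.sum_congr rfl fun k _ => ?_
  simp only [Pi.mul_apply, Finset.sum_apply, Finset.prod_apply, Pi.pow_apply, rootY, rootZ,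
    LinearMap.pi_apply]
  rw [Finset.sum_mul]
  refine Finset.sum_congr rfl fun τ _ => ?_
  rw [Fin.prod_univ_succ, Equiv.Perm.decomposeFin_symm_apply_zero, mul_comm]
  simp only [Equiv.Perm.decomposeFin_symm_apply_succ]

theorem step_three {m : ℕ} (x : Fin (m + 1) → W →ₗ[K] S) (d : ℕ) :
    normSpan Finset.univ x m *
      ((normSpan Finset.univ (rootY x) 1) ^ d * (LinearMap.range (rootZ x)) ^ d).map
      (sumMap K S (Fin (m + 1))) ≤ (normSpan Finset.univ x 1) ^ (d + m) := by
  rw [normSpan, ← Submodule.span_eq (Submodule.map _ _), Submodule.span_mul_span,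
    Submodule.span_le]
  rintro _ ⟨_, ⟨u, rfl⟩, _, ⟨g, hg, rfl⟩, rfl⟩
  have h1 : g * rootZ x u ^ m ∈ (normSpan Finset.univ (rootY x) 1) ^ d *
      (LinearMap.range (rootZ x)) ^ (d + m) := by
    rw [pow_add, ← mul_assoc]
    exact Submodule.mul_mem_mul hg (Submodule.pow_mem_pow _ (LinearMap.mem_range_self _ _) _)
  have h2 := root_pow (rootY x) (rootZ x) d h1
  have h3 := mul_le_mul_right (range_pow_le_span (rootZ x) m) _ h2
  simp only [rootY_mul_rootZ] at h3
  let φ : (Fin (m + 1) → S) →ₗ[K] S :=
    sumMap K S (Fin (m + 1)) ∘ₗ LinearMap.mulRight K ((∏ j, rootY x j u) ^ m)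
  have h4 : (Submodule.span K (Set.range fun w => fun _ : Fin (m + 1) => ∏ i, x i w)) ^ d *
      Submodule.span K (Set.range fun v => rootZ x v ^ m) ≤
      ((normSpan Finset.univ x 1) ^ (d + m)).comap φ := by
    rw [Submodule.span_pow, Submodule.span_mul_span, Submodule.span_le]
    rintro _ ⟨p, hp, _, ⟨v, rfl⟩, rfl⟩
    have hp' : ∃ p' ∈ (normSpan Finset.univ x 1) ^ d, p = fun _ => p' := by
      rw [Set.mem_pow] at hp
      obtain ⟨f, rfl⟩ := hp
      choose w hw using fun i => (f i).2
      refine ⟨∏ i : Fin d, ∏ j, x j (w i), ?_, ?_⟩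
      · have := prod_mem_prod' (K := K) Finset.univ (fun _ : Fin d => normSpan Finset.univ x 1)
          (fun i => ∏ j, x j (w i)) (fun i _ => Submodule.subset_span ⟨w i, by simp⟩)
        simpa using this
      · rw [List.prod_ofFn]
        funext k
        rw [Finset.prod_apply]
        refine Finset.prod_congr rfl fun i _ => ?_
        rw [← hw i]
    obtain ⟨p', hp', rfl⟩ := hp'
    simp only [SetLike.mem_coe, Submodule.mem_comap, φ, LinearMap.comp_apply,
      LinearMap.mulRight_apply, sumMap_apply]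
    have : ∑ k, (((fun _ => p' : Fin (m + 1) → S) * rootZ x v ^ m * (∏ j, rootY x j u) ^ m :
        Fin (m + 1) → S)) k =
        p' * ∑ k, (x k v * ∏ j ∈ Finset.univ.erase k, x j u) ^ m := by
      rw [Finset.mul_sum]
      refine Finset.sum_congr rfl fun k _ => ?_
      simp only [Pi.mul_apply, Pi.pow_apply, rootY_prod, rootZ, LinearMap.pi_apply]
      ring
    rw [this, pow_add]
    exact Submodule.mul_mem_mul hp' (newton_mem x u v m)
  have h5 := h4 h3
  simp only [Submodule.mem_comap, φ, LinearMap.comp_apply,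
      LinearMap.mulRight_apply, sumMap_apply] at h5
  simp only [SetLike.mem_coe, sumMap_apply]
  convert h5 using 1
  rw [Finset.mul_sum]
  refine Finset.sum_congr rfl fun k _ => ?_
  have := congrFun (rootY_mul_rootZ x u) k
  simp only [Pi.mul_apply] at this
  simp only [Pi.mul_apply, Pi.pow_apply]
  rw [← this]
  ring

end

theorem main_incl (a : ℕ) : ∀ (S : Type v) [CommRing S] [Algebra K S]
    (x : Fin a → W →ₗ[K] S) (b : ℕ), a * (a - 1) ≤ b →
    symSpan x b ≤ (normSpan Finset.univ x 1) ^ b := by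
  induction a with
  | zero =>
    intro S _ _ x b _
    rw [symSpan, Submodule.span_le]
    rintro _ ⟨u, rfl⟩
    have : (1 : S) ∈ normSpan Finset.univ x 1 := Submodule.subset_span ⟨0, by simp⟩
    simpa using Submodule.pow_mem_pow _ this b
  | succ m ih =>
    intro S _ _ x b hb
    simp only [Nat.add_sub_cancel] at hb
    obtain ⟨d, rfl⟩ : ∃ d, b = d + m := ⟨b - m, by
      have : m ≤ (m + 1) * m := Nat.le_mul_of_pos_left m (Nat.succ_pos m)
      omega⟩
    have hd : m * (m - 1) ≤ d := by
      have : m * (m - 1) ≤ m * m := Nat.mul_le_mul_left _ (Nat.sub_le _ _)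
      nlinarith
    refine le_trans (step_one x m d hb) (le_trans ?_ (step_three x d))
    refine mul_le_mul_right (le_trans (step_two x d) (Submodule.map_mono ?_)) _
    exact mul_le_mul_left (ih _ (rootY x) d hd) _

end Vale.Agent.P181
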