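import Vale.Agent.P181.Bridge1
import Vale.Agent.P181.Core3

/-! From the ring-theoretic inclusion to the Foulkes-Howe map. -/

namespace Vale.Agent.P181

open scoped TensorProduct
open SymmetricPower

universe v

variable {K : Type} [Field K]
variable {V : Type v} [AddCommGroup V] [Module K V]

/-- evaluation of a vector at the `i`-th functional -/
def ev (K : Type) [Field K] (V : Type v) [AddCommGroup V] [Module K V] (n : ℕ) (i : Fin n) :
    V →ₗ[K] ((Fin n → Module.Dual K V) → K) :=
  LinearMap.pi fun ξ => ξ i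

@[simp] theorem ev_apply (n : ℕ) (i : Fin n) (w : V) (ξ : Fin n → Module.Dual K V) :
    ev K V n i w ξ = ξ i w := rfl

noncomputable def theta (K : Type) [Field K] (V : Type v) [AddCommGroup V] [Module K V]
    (a b : ℕ) : SymmetricPower K (Fin a) (SymmetricPower K (Fin b) V) →ₗ[K]
      ((Fin a → Module.Dual K V) → K) :=
  permMap fun i => powMap b (ev K V a i)

noncomputable def eta (K : Type) [Field K] (V : Type v) [AddCommGroup V] [Module K V]
    (a b : ℕ) : SymmetricPower K (Fin a) (SymmetricPower K (Fin b) V) →ₗ[K]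
      ((Fin b → Module.Dual K V) → K) :=
  powMap a (permMap (ev K V b))

theorem theta_injective [CharZero K] [FiniteDimensional K V] (a b : ℕ) :
    LinearMap.ker (theta K V a b) = ⊥ := by
  rw [LinearMap.ker_eq_bot']
  intro F hF
  refine eq_zero_of_permMap (fun ξ : Module.Dual K V => powMap (S := K) b ξ)
    (fun z hz => exists_powMap_ne_zero z hz) F fun ξ => ?_
  have : permMap (S := K) (fun i => powMap (S := K) b (ξ i)) =
      LinearMap.proj ξ ∘ₗ theta K V a b := by
    refine sym_sym_ext fun v => ?_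
    simp [theta]
  rw [this, LinearMap.comp_apply, hF, map_zero]

theorem fh_identity {S : Type*} [CommRing S] {a b : ℕ} (g : Fin b → Fin a → Fin b → S) :
    ∑ σ : Fin a → Equiv.Perm (Fin b), ∑ τ : Equiv.Perm (Fin b), ∏ j, ∏ i, g (τ j) i (σ i j) =
      b.factorial • ∏ i, ∑ ρ : Equiv.Perm (Fin b), ∏ j, g (ρ j) i j := by
  rw [Finset.sum_comm]
  have : ∀ τ : Equiv.Perm (Fin b),
      ∑ σ : Fin a → Equiv.Perm (Fin b), ∏ j, ∏ i, g (τ j) i (σ i j) =
        ∏ i, ∑ ρ : Equiv.Perm (Fin b), ∏ j, g (ρ j) i j := by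
    intro τ
    have h1 : ∀ i, ∑ ρ : Equiv.Perm (Fin b), ∏ j, g (ρ j) i j =
        ∑ ρ : Equiv.Perm (Fin b), ∏ j, g (τ j) i (ρ j) :=
      fun i => (perm_sum_comm (fun j k => g j i k) τ).symm
    simp only [h1]
    rw [Finset.prod_univ_sum, Fintype.piFinset_univ]
    exact Finset.sum_congr rfl fun σ _ => Finset.prod_comm
  simp only [this, Finset.sum_const, Finset.card_univ, Fintype.card_perm, Fintype.card_fin]

theorem theta_formula (a b : ℕ) (v : Fin a → Fin b → V) :
    theta K V b a (∑ σ : Fin a → Equiv.Perm (Fin b),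
        tprod K fun j => tprod K fun i => v i (σ i j)) =
      (b.factorial : K) • eta K V a b (tprod K fun i => tprod K fun j => v i j) := by
  simp only [map_sum, theta, eta, permMap_tprod, powMap_tprod]
  rw [Nat.cast_smul_eq_nsmul]
  exact fh_identity fun j i k => ev K V b j (v i k)

/-- linear maps `Sym^a (Sym^b V) → Sym^b (Sym^a V)` -/
abbrev FHType (K : Type) [Field K] (a b : ℕ) (V : Type v) [AddCommGroup V] [Module K V] :=
  SymmetricPower K (Fin a) (SymmetricPower K (Fin b) V) →ₗ[K]
      SymmetricPower K (Fin b) (SymmetricPower K (Fin a) V)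

theorem IsFoulkesHowe.apply {a b : ℕ} {Ψ : FHType K a b V} (h : IsFoulkesHowe K a b V Ψ)
    (v : Fin a → Fin b → V) :
    Ψ (tprod K fun i => tprod K fun j => v i j) =
      ∑ σ : Fin a → Equiv.Perm (Fin b), tprod K fun j => tprod K fun i => v i (σ i j) := h v

theorem exists_foulkesHowe [CharZero K] [FiniteDimensional K V] (a b : ℕ) :
    ∃ Ψ : FHType K a b V, IsFoulkesHowe K a b V Ψ := by
  refine ⟨(theta K V b a).leftInverse ∘ₗ ((b.factorial : K) • eta K V a b), fun v => ?_⟩
  unfold sprod
  rw [LinearMap.comp_apply, LinearMap.smul_apply, ← theta_formula,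
    LinearMap.leftInverse_apply_of_inj (theta_injective b a)]

theorem IsFoulkesHowe.theta_comp {a b : ℕ} {Ψ : FHType K a b V} (h : IsFoulkesHowe K a b V Ψ) :
    theta K V b a ∘ₗ Ψ = (b.factorial : K) • eta K V a b := by
  refine sym_sym_ext fun v => ?_
  rw [LinearMap.comp_apply, h.apply, theta_formula, LinearMap.smul_apply]

theorem IsFoulkesHowe.equivariant {a b : ℕ} {Ψ : FHType K a b V} (h : IsFoulkesHowe K a b V Ψ) :
    IsGLEquivariant K a b V Ψ := by
  intro g x
  have : Ψ ∘ₗ symMap a (symMap b g.toLinearMap) = symMap b (symMap a g.toLinearMap) ∘ₗ Ψ := by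
    refine sym_sym_ext fun v => ?_
    simp only [LinearMap.comp_apply, symMap_tprod]
    rw [h.apply, h.apply]
    simp only [map_sum, symMap_tprod]
  exact DFunLike.congr_fun this x

theorem span_pure_pure [CharZero K] (a b : ℕ) :
    Submodule.span K (Set.range fun u : Fin a → V =>
      tprod K fun i => tprod K fun _ : Fin b => u i) = ⊤ :=
  span_of_span (fun w : V => tprod K fun _ : Fin b => w) (span_pure b)

theorem normSpan_pow_le {W : Type*} [AddCommGroup W] [Module K W] {S : Type*} [CommRing S]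
    [Algebra K S] {a : ℕ} (x : Fin a → W →ₗ[K] S) (b : ℕ) (U : Submodule K S)
    (hU : ∀ w : Fin b → W, ∏ j, ∏ i, x i (w j) ∈ U) : (normSpan Finset.univ x 1) ^ b ≤ U := by
  rw [normSpan, Submodule.span_pow, Submodule.span_le]
  intro p hp
  rw [Set.mem_pow] at hp
  obtain ⟨f, rfl⟩ := hp
  choose w hw using fun i => (f i).2
  rw [List.prod_ofFn]
  have := hU w
  simp only [pow_one] at hw
  simp only [hw] at this
  exact this

theorem IsFoulkesHowe.surjective [CharZero K] [FiniteDimensional K V] {a b : ℕ} {Φ : FHType K b a V}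
    (h : IsFoulkesHowe K b a V Φ)
    (H : symSpan (ev K V a) b ≤ (normSpan Finset.univ (ev K V a) 1) ^ b) :
    Function.Surjective Φ := by
  have ha : (a.factorial : K) ≠ 0 := by exact_mod_cast a.factorial_ne_zero
  have h1 : (⊤ : Submodule K _) ≤ (symSpan (ev K V a) b).comap (theta K V a b) := by
    rw [← span_pure_pure a b, Submodule.span_le]
    rintro _ ⟨u, rfl⟩
    apply Submodule.subset_span
    refine ⟨u, ?_⟩
    simp [theta]
  have h2 : (normSpan Finset.univ (ev K V a) 1) ^ b ≤ LinearMap.range (eta K V b a) := by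
    refine normSpan_pow_le _ _ _ fun w => ?_
    refine ⟨((a.factorial : K)⁻¹) ^ b • tprod K fun j => tprod K fun _ : Fin a => w j, ?_⟩
    simp only [map_smul, eta, powMap_tprod, permMap_tprod]
    have : ∀ j, ∑ σ : Equiv.Perm (Fin a), ∏ i, ev K V a (σ i) (w j) =
        (a.factorial : K) • ∏ i, ev K V a i (w j) := by
      intro j
      simp only [fun σ : Equiv.Perm (Fin a) => Equiv.prod_comp σ fun i => ev K V a i (w j)]
      simp only [Finset.sum_const, Finset.card_univ, Fintype.card_perm, Fintype.card_fin]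
      rw [Nat.cast_smul_eq_nsmul]
    simp only [this]
    rw [Finset.prod_smul, smul_smul]
    simp only [Finset.prod_const, Finset.card_univ, Fintype.card_fin]
    rw [← mul_pow, inv_mul_cancel₀ ha, one_pow, one_smul]
  intro F
  obtain ⟨G, hG⟩ := h2 (H (h1 (Submodule.mem_top (x := F))))
  refine ⟨(a.factorial : K)⁻¹ • G, ?_⟩
  apply LinearMap.ker_eq_bot.1 (theta_injective (K := K) (V := V) a b)
  have := DFunLike.congr_fun h.theta_comp G
  rw [LinearMap.comp_apply, LinearMap.smul_apply] at this
  rw [map_smul, map_smul, this, hG, smul_smul, inv_mul_cancel₀ ha, one_smul]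

/-- evaluation of a functional at the `i`-th vector -/
def coev (K : Type) [Field K] (V : Type v) [AddCommGroup V] [Module K V] (n : ℕ) (i : Fin n) :
    Module.Dual K V →ₗ[K] ((Fin n → V) → K) :=
  LinearMap.pi fun u => Module.Dual.eval K V (u i)

@[simp] theorem coev_apply (n : ℕ) (i : Fin n) (ξ : Module.Dual K V) (u : Fin n → V) :
    coev K V n i ξ u = ξ (u i) := rfl

theorem IsFoulkesHowe.injective [CharZero K] [FiniteDimensional K V] {a b : ℕ} {Ψ : FHType K a b V}
    (h : IsFoulkesHowe K a b V Ψ)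
    (H : symSpan (coev K V a) b ≤ (normSpan Finset.univ (coev K V a) 1) ^ b) :
    Function.Injective Ψ := by
  have hb : (b.factorial : K) ≠ 0 := by exact_mod_cast b.factorial_ne_zero
  rw [← LinearMap.ker_eq_bot, LinearMap.ker_eq_bot']
  intro F hF
  have hη : eta K V a b F = 0 := by
    have := DFunLike.congr_fun h.theta_comp F
    rw [LinearMap.comp_apply, LinearMap.smul_apply, hF, map_zero] at this
    exact (smul_eq_zero.1 this.symm).resolve_left hb
  have hmem : F ∈ Submodule.span K (Set.range fun u : Fin a → V =>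
      tprod K fun i => tprod K fun _ : Fin b => u i) := by
    rw [span_pure_pure]; exact Submodule.mem_top
  rw [Submodule.mem_span_set'] at hmem
  obtain ⟨n, f, g, rfl⟩ := hmem
  choose u hu using fun k => (g k).2
  simp only [← hu] at hη ⊢
  let φ : ((Fin a → V) → K) →ₗ[K] K := ∑ k, f k • LinearMap.proj (u k)
  have hφ : ∀ p, φ p = ∑ k, f k * p (u k) := by
    intro p; simp [φ]
  have h2 : (normSpan Finset.univ (coev K V a) 1) ^ b ≤ LinearMap.ker φ := by
    refine normSpan_pow_le _ _ _ fun ξ => ?_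
    rw [LinearMap.mem_ker, hφ]
    have := congrFun hη ξ
    simp only [map_sum, map_smul, eta, powMap_tprod, permMap_tprod, Finset.sum_apply,
      Pi.smul_apply, Finset.prod_apply, ev_apply, smul_eq_mul, Pi.zero_apply] at this
    have h3 : ∀ w : V, ∑ σ : Equiv.Perm (Fin b), ∏ j, ξ (σ j) w =
        (b.factorial : K) * ∏ j, ξ j w := by
      intro w
      simp only [fun σ : Equiv.Perm (Fin b) => Equiv.prod_comp σ fun j => ξ j w]
      simp [Fintype.card_perm]
    simp only [h3, Finset.prod_mul_distrib, Finset.prod_const, Finset.card_univ,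
      Fintype.card_fin] at this
    have h4 : (b.factorial : K) ^ a * ∑ k, f k * (∏ j, ∏ i, coev K V a i (ξ j)) (u k) = 0 := by
      rw [← this, Finset.mul_sum]
      refine Finset.sum_congr rfl fun k _ => ?_
      simp only [Finset.prod_apply, coev_apply]
      rw [Finset.prod_comm]
      ring
    exact (mul_eq_zero.1 h4).resolve_left (pow_ne_zero _ hb)
  apply LinearMap.ker_eq_bot'.1 (theta_injective (K := K) (V := V) a b)
  have h5 : ∀ ζ : Fin a → Module.Dual K V,
      φ (∑ σ : Equiv.Perm (Fin a), ∏ i, coev K V a (σ i) (ζ i) ^ b) = 0 :=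
    fun ζ => h2 (H (Submodule.subset_span ⟨ζ, rfl⟩))
  funext ζ
  have := h5 ζ
  rw [hφ] at this
  simp only [map_sum, map_smul, theta, powMap_tprod, permMap_tprod, Finset.sum_apply,
    Pi.smul_apply, Finset.prod_apply, ev_apply, smul_eq_mul, Pi.zero_apply]
  rw [← this]
  refine Finset.sum_congr rfl fun k _ => ?_
  congr 1
  simp only [Finset.sum_apply, Finset.prod_apply, Pi.pow_apply, coev_apply, Finset.prod_const,
    Finset.card_univ, Fintype.card_fin]
  exact (perm_sum_comm (fun i j => ζ i (u k j) ^ b) 1).symm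

theorem quadratic_stabilization [CharZero K] [FiniteDimensional K V] (a b : ℕ)
    (hb : a * (a - 1) ≤ b) :
    (∃ Ψ : SymmetricPower K (Fin a) (SymmetricPower K (Fin b) V) →
        SymmetricPower K (Fin b) (SymmetricPower K (Fin a) V),
      IsLinearMap K Ψ ∧ IsFoulkesHowe K a b V Ψ ∧ IsGLEquivariant K a b V Ψ ∧
        Function.Injective Ψ) ∧
    (∃ Φ : SymmetricPower K (Fin b) (SymmetricPower K (Fin a) V) →
        SymmetricPower K (Fin a) (SymmetricPower K (Fin b) V),
      IsLinearMap K Φ ∧ IsFoulkesHowe K b a V Φ ∧ IsGLEquivariant K b a V Φ ∧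
        Function.Surjective Φ) := by
  obtain ⟨Ψ, hΨ⟩ := exists_foulkesHowe (K := K) (V := V) a b
  obtain ⟨Φ, hΦ⟩ := exists_foulkesHowe (K := K) (V := V) b a
  exact ⟨⟨Ψ, Ψ.isLinear, hΨ, hΨ.equivariant, hΨ.injective (main_incl a _ _ b hb)⟩,
    ⟨Φ, Φ.isLinear, hΦ, hΦ.equivariant, hΦ.surjective (main_incl a _ _ b hb)⟩⟩

end Vale.Agent.P181
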