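import Mathlib

/-! Basic lemmas: coefficient extraction, polarization, root reduction. -/

open Polynomial

namespace Vale.Agent.P181

variable {K : Type*} [Field K] [CharZero K]
variable {S : Type*} [CommRing S] [Algebra K S]
variable {W : Type*} [AddCommGroup W] [Module K W]

theorem coeff_mem_of_eval_mem (U : Submodule K S) (P : S[X])
    (h : ∀ t : K, P.eval (algebraMap K S t) ∈ U) (j : ℕ) : P.coeff j ∈ U := by
  by_contra hj
  obtain ⟨φ, hφ, hU⟩ := Submodule.exists_dual_map_eq_bot_of_notMem hj inferInstance
  have hz : ∀ y ∈ U, φ y = 0 := by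
    intro y hy
    have : φ y ∈ U.map φ := Submodule.mem_map_of_mem hy
    rw [hU] at this
    simpa using this
  let p : K[X] := ∑ k ∈ Finset.range (P.natDegree + 1), monomial k (φ (P.coeff k))
  have hp : p = 0 := by
    apply Polynomial.funext
    intro t
    have h1 := hz _ (h t)
    rw [Polynomial.eval_eq_sum_range] at h1
    simp only [map_sum] at h1
    simp only [p, eval_finsetSum, eval_monomial, eval_zero]
    rw [← h1]
    refine Finset.sum_congr rfl fun k _ => ?_
    rw [← map_pow, mul_comm (P.coeff k), ← Algebra.smul_def, map_smul, smul_eq_mul, mul_comm]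
  have h2 : p.coeff j = φ (P.coeff j) := by
    simp only [p, finsetSum_coeff, coeff_monomial]
    rw [Finset.sum_ite_eq' (Finset.range (P.natDegree + 1)) j (fun k => φ (P.coeff k))]
    split_ifs with hj'
    · rfl
    · have : P.coeff j = 0 := by
        apply coeff_eq_zero_of_natDegree_lt
        simp only [Finset.mem_range] at hj'
        omega
      simp [this]
  rw [hp] at h2
  exact hφ (by simpa using h2.symm)

/-- polarization -/
theorem range_pow_le_span (z : W →ₗ[K] S) (n : ℕ) :
    (LinearMap.range z) ^ n ≤ Submodule.span K (Set.range fun v => z v ^ n) := by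
  induction n with
  | zero =>
    rw [pow_zero, Submodule.one_le]
    exact Submodule.subset_span ⟨0, by simp⟩
  | succ n ih =>
    rw [pow_succ]
    refine le_trans (mul_le_mul_left ih _) ?_
    rw [← Submodule.span_eq (LinearMap.range z), Submodule.span_mul_span, Submodule.span_le]
    rintro _ ⟨_, ⟨v, rfl⟩, _, ⟨w, rfl⟩, rfl⟩
    have h := coeff_mem_of_eval_mem (K := K)
      (Submodule.span K (Set.range fun v => z v ^ (n + 1)))
      ((C (z w) * X + C (z v)) ^ (n + 1)) (by
        intro t
        apply Submodule.subset_span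
        refine ⟨v + t • w, ?_⟩
        simp only [map_add, map_smul, eval_pow, eval_add, eval_mul, eval_C, eval_X]
        rw [Algebra.smul_def]; ring) 1
    have hc : ((C (z w) * X + C (z v)) ^ (n + 1)).coeff 1 = ((n : K) + 1) • (z v ^ n * z w) := by
      rw [← mul_one (Polynomial.coeff _ 1)]
      have := Polynomial.coeff_derivative ((C (z w) * X + C (z v)) ^ (n + 1)) 0
      simp only [zero_add, Nat.cast_zero] at this
      rw [← this, Polynomial.derivative_pow]
      simp only [Algebra.smul_def, map_add, map_natCast, map_one, coeff_zero_eq_eval_zero]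
      simp
      ring
    rw [hc] at h
    have hn : ((n : K) + 1) ≠ 0 := by exact_mod_cast Nat.succ_ne_zero n
    have := Submodule.smul_mem _ ((n : K) + 1)⁻¹ h
    rwa [smul_smul, inv_mul_cancel₀ hn, one_smul] at this

omit [CharZero K] in
theorem root_aux (U L : Submodule K S) (α β : S) (hα : α ∈ L) (hβ : β ∈ L) (Q : S[X]) (m c : ℕ)
    (hQ : Q.natDegree ≤ m) (hP : ∀ j, (Q * (C β * X + C α) ^ c).coeff j ∈ U) :
    ∀ d j, j + d = m → Q.coeff j * β ^ (d + c) ∈ U * L ^ d := by
  intro d
  induction d using Nat.strong_induction_on with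
  | _ d ih =>
    intro j hj
    have hexp : (Q * (C β * X + C α) ^ c).coeff (j + c) =
        ∑ r ∈ Finset.range (c + 1), (c.choose r : S) * α ^ r * β ^ (c - r) * Q.coeff (j + r) := by
      rw [add_comm (C β * X), add_pow, Finset.mul_sum, finsetSum_coeff]
      refine Finset.sum_congr rfl fun r hr => ?_
      have hr' : r ≤ c := by simpa [Nat.lt_succ_iff] using hr
      have : Q * (C α ^ r * (C β * X) ^ (c - r) * (c.choose r : S[X])) =
          C ((c.choose r : S) * α ^ r * β ^ (c - r)) * (Q * X ^ (c - r)) := by
        simp only [map_mul, map_pow, map_natCast]; ring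
      rw [this, coeff_C_mul]
      congr 1
      have : j + c = (j + r) + (c - r) := by omega
      rw [this, coeff_mul_X_pow]
    rw [Finset.sum_range_succ'] at hexp
    simp only [Nat.choose_zero_right, Nat.cast_one, pow_zero, mul_one, one_mul, Nat.sub_zero,
      add_zero] at hexp
    have hmain : Q.coeff j * β ^ (d + c) = (Q * (C β * X + C α) ^ c).coeff (j + c) * β ^ d -
        ∑ r ∈ Finset.range c, (c.choose (r + 1) : S) * α ^ (r + 1) * β ^ (c - (r + 1)) *
          Q.coeff (j + (r + 1)) * β ^ d := by
      rw [hexp, ← Finset.sum_mul]; ring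
    rw [hmain]
    refine Submodule.sub_mem _ (Submodule.mul_mem_mul (hP _) (Submodule.pow_mem_pow _ hβ _)) ?_
    refine Submodule.sum_mem _ fun r hr => ?_
    have hr' : r < c := by simpa using hr
    by_cases hrd : r + 1 ≤ d
    · obtain ⟨e, rfl⟩ := Nat.exists_eq_add_of_le hrd
      have h1 := ih e (by omega) (j + (r + 1)) (by omega)
      have h2 : (c.choose (r + 1) : S) * α ^ (r + 1) * β ^ (c - (r + 1)) *
          Q.coeff (j + (r + 1)) * β ^ (r + 1 + e) =
          ((c.choose (r + 1) : K)) • (Q.coeff (j + (r + 1)) * β ^ (e + c) * α ^ (r + 1)) := by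
        obtain ⟨f, rfl⟩ := Nat.exists_eq_add_of_le (show r + 1 ≤ c by omega)
        rw [Algebra.smul_def, map_natCast, Nat.add_sub_cancel_left]
        ring
      rw [h2]
      refine Submodule.smul_mem _ _ ?_
      have h3 := Submodule.mul_mem_mul h1 (Submodule.pow_mem_pow _ hα (r + 1))
      rwa [mul_assoc U, ← pow_add, add_comm e] at h3
    · have : Q.coeff (j + (r + 1)) = 0 := by
        apply coeff_eq_zero_of_natDegree_lt; omega
      rw [this]; simp

/-- root reduction -/
theorem root_reduction (q : W → S) (m c : ℕ)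
    (hq : ∀ w v, ∃ Q : S[X], Q.natDegree ≤ m ∧
      ∀ t : K, Q.eval (algebraMap K S t) = q (w + t • v))
    (z : W →ₗ[K] S) :
    Submodule.span K (Set.range q) * (LinearMap.range z) ^ (m + c) ≤
      Submodule.span K (Set.range fun w => q w * z w ^ c) * (LinearMap.range z) ^ m := by
  refine le_trans (mul_le_mul_right (range_pow_le_span z (m + c)) _) ?_
  rw [Submodule.span_mul_span, Submodule.span_le]
  rintro _ ⟨_, ⟨w, rfl⟩, _, ⟨v, rfl⟩, rfl⟩
  obtain ⟨Q, hQ, hev⟩ := hq w v
  have h0 : q w = Q.coeff 0 := by
    have := hev 0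
    simp only [map_zero, zero_smul, add_zero] at this
    rw [← this, coeff_zero_eq_eval_zero]
  have := root_aux (K := K) (Submodule.span K (Set.range fun w => q w * z w ^ c))
    (LinearMap.range z) (z w) (z v) ⟨w, rfl⟩ ⟨v, rfl⟩ Q m c hQ (by
      apply coeff_mem_of_eval_mem
      intro t
      apply Submodule.subset_span
      refine ⟨w + t • v, ?_⟩
      simp only [map_add, map_smul, eval_pow, eval_add, eval_mul, eval_C, eval_X, hev]
      rw [Algebra.smul_def]; ring) m 0 (by simp)
  simpa [h0] using this

end Vale.Agent.P181
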