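import Vale.Agent.P181.Core1

/-! Norm spans, the contraction lemma and the homogeneous Newton lemma. -/

open Polynomial

namespace Vale.Agent.P181

variable {K : Type*} [Field K] [CharZero K]
variable {S : Type*} [CommRing S] [Algebra K S]
variable {W : Type*} [AddCommGroup W] [Module K W]

/-- span of the `c`-th powers of the norms over the finset `s`. -/
def normSpan {ι : Type*} (s : Finset ι) (x : ι → W →ₗ[K] S) (c : ℕ) : Submodule K S :=
  Submodule.span K (Set.range fun w => (∏ i ∈ s, x i w) ^ c)

omit [CharZero K] in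
theorem norm_poly {ι : Type*} (s : Finset ι) (x : ι → W →ₗ[K] S) (c : ℕ) (w v : W) :
    ∃ Q : S[X], Q.natDegree ≤ s.card * c ∧
      ∀ t : K, Q.eval (algebraMap K S t) = (∏ i ∈ s, x i (w + t • v)) ^ c := by
  refine ⟨(∏ i ∈ s, (C (x i v) * X + C (x i w))) ^ c, ?_, ?_⟩
  · refine le_trans natDegree_pow_le ?_
    rw [mul_comm]
    refine Nat.mul_le_mul_right _ ?_
    refine le_trans (natDegree_prod_le _ _) ?_
    refine le_trans (Finset.sum_le_card_nsmul _ _ 1 fun i _ => natDegree_linear_le) ?_
    simp
  · intro t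
    simp only [eval_pow, eval_prod, eval_add, eval_mul, eval_C, eval_X, map_add, map_smul]
    congr 1
    refine Finset.prod_congr rfl fun i _ => ?_
    rw [Algebra.smul_def]; ring

theorem normSpan_insert {ι : Type*} [DecidableEq ι] (s : Finset ι) (k : ι) (hk : k ∉ s)
    (x : ι → W →ₗ[K] S) (c d : ℕ) (hd : s.card * c ≤ d) :
    normSpan s x c * (LinearMap.range (x k)) ^ (d + c) ≤
      normSpan (insert k s) x c * (LinearMap.range (x k)) ^ d := by
  obtain ⟨e, rfl⟩ := Nat.exists_eq_add_of_le hd
  have h := root_reduction (K := K) (fun w => (∏ i ∈ s, x i w) ^ c) (s.card * c) c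
    (norm_poly s x c) (x k)
  have h2 : (fun w => (∏ i ∈ s, x i w) ^ c * x k w ^ c) =
      fun w => (∏ i ∈ insert k s, x i w) ^ c := by
    funext w
    rw [Finset.prod_insert hk]; ring
  rw [h2] at h
  have e1 : s.card * c + e + c = (s.card * c + c) + e := by ring
  rw [e1, pow_add _ (s.card * c + c) e, pow_add _ (s.card * c) e, ← mul_assoc, ← mul_assoc]
  exact mul_le_mul_left h _

theorem contraction {ι : Type*} [DecidableEq ι] (s : Finset ι)
    (x : ι → W →ₗ[K] S) (c d : ℕ) (hd : s.card * c ≤ d + c) :
    ∏ i ∈ s, (LinearMap.range (x i)) ^ (d + c) ≤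
      normSpan s x c * ∏ i ∈ s, (LinearMap.range (x i)) ^ d := by
  induction s using Finset.induction_on with
  | empty =>
    simp only [Finset.prod_empty, mul_one, normSpan, one_pow, Submodule.one_le]
    exact Submodule.subset_span ⟨0, rfl⟩
  | insert k s hk ih =>
    rw [Finset.card_insert_of_notMem hk] at hd
    have hd' : s.card * c ≤ d := by nlinarith
    rw [Finset.prod_insert hk, Finset.prod_insert hk]
    refine le_trans (mul_le_mul_right (ih (by omega)) _) ?_
    rw [← mul_assoc, ← mul_assoc, mul_comm _ (normSpan s x c)]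
    exact mul_le_mul_left (normSpan_insert s k hk x c d hd') _

omit [CharZero K] in
theorem prod_cofactor {ι : Type*} [Fintype ι] [DecidableEq ι] (p q : ι → S) (T : Finset ι)
    (hT : T.Nonempty) :
    ∏ k ∈ T, (q k * ∏ j ∈ Finset.univ.erase k, p j) =
      (∏ j, p j) ^ (T.card - 1) * ((∏ k ∈ T, q k) * ∏ j ∈ Finset.univ \ T, p j) := by
  induction hT using Finset.Nonempty.cons_induction with
  | singleton a => simp [Finset.sdiff_singleton_eq_erase]
  | cons a s h hs ih =>
    rw [Finset.prod_cons, Finset.prod_cons, ih, Finset.card_cons]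
    have h1 : ∏ j ∈ Finset.univ \ s, p j = p a * ∏ j ∈ Finset.univ \ Finset.cons a s h, p j := by
      rw [← Finset.mul_prod_erase (Finset.univ \ s) p (a := a) (by simp [h])]
      congr 2
      ext y; simp [not_or]
    have h2 : ∏ j, p j = p a * ∏ j ∈ Finset.univ.erase a, p j :=
      (Finset.mul_prod_erase Finset.univ p (Finset.mem_univ a)).symm
    obtain ⟨n, hn⟩ : ∃ n, s.card = n + 1 := Nat.exists_eq_succ_of_ne_zero hs.card_pos.ne'
    rw [hn, h1]
    simp only [Nat.add_sub_cancel]
    rw [pow_succ, h2]
    ring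

theorem elem_mem {ι : Type*} [Fintype ι] [DecidableEq ι] (x : ι → W →ₗ[K] S) (u v : W) (r : ℕ) :
    ∑ T ∈ Finset.powersetCard r Finset.univ,
      ((∏ k ∈ T, x k v) * ∏ j ∈ Finset.univ \ T, x j u) ∈ normSpan Finset.univ x 1 := by
  have h := coeff_mem_of_eval_mem (K := K) (normSpan Finset.univ x 1)
    (∏ i, (C (x i v) * X + C (x i u))) (by
      intro t
      apply Submodule.subset_span
      refine ⟨u + t • v, ?_⟩
      simp only [pow_one, eval_prod, eval_add, eval_mul, eval_C, eval_X, map_add, map_smul]
      refine Finset.prod_congr rfl fun i _ => ?_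
      rw [Algebra.smul_def]; ring) r
  convert h using 1
  rw [Finset.prod_add, finsetSum_coeff, Finset.powersetCard_eq_filter, Finset.sum_filter]
  refine Finset.sum_congr rfl fun T _ => ?_
  rw [Finset.prod_mul_distrib, Finset.prod_const, ← map_prod, ← map_prod]
  have : C (∏ k ∈ T, x k v) * X ^ T.card * C (∏ j ∈ Finset.univ \ T, x j u) =
      C ((∏ k ∈ T, x k v) * ∏ j ∈ Finset.univ \ T, x j u) * X ^ T.card := by
    rw [map_mul]; ring
  rw [this, coeff_C_mul_X_pow]
  simp only [eq_comm]

theorem newton_mem {ι : Type*} [Fintype ι] [DecidableEq ι] (x : ι → W →ₗ[K] S) (u v : W) (c : ℕ) :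
    ∑ k, (x k v * ∏ j ∈ Finset.univ.erase k, x j u) ^ c ∈ (normSpan Finset.univ x 1) ^ c := by
  set y : ι → S := fun k => x k v * ∏ j ∈ Finset.univ.erase k, x j u with hy
  set B := normSpan Finset.univ x 1 with hB
  have hN : ∏ j, x j u ∈ B := Submodule.subset_span ⟨u, by simp⟩
  have he : ∀ r, 0 < r → MvPolynomial.aeval y (MvPolynomial.esymm ι K r) ∈ B ^ r := by
    intro r hr
    obtain ⟨n, rfl⟩ : ∃ n, r = n + 1 := Nat.exists_eq_succ_of_ne_zero hr.ne'
    have : MvPolynomial.aeval y (MvPolynomial.esymm ι K (n + 1)) =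
        (∏ j, x j u) ^ n * ∑ T ∈ Finset.powersetCard (n + 1) Finset.univ,
          ((∏ k ∈ T, x k v) * ∏ j ∈ Finset.univ \ T, x j u) := by
      simp only [MvPolynomial.esymm, map_sum, map_prod, MvPolynomial.aeval_X]
      rw [Finset.mul_sum]
      refine Finset.sum_congr rfl fun T hT => ?_
      have hc : T.card = n + 1 := (Finset.mem_powersetCard.1 hT).2
      have := prod_cofactor (fun j => x j u) (fun k => x k v) T
        (Finset.card_pos.1 (by omega))
      rw [hc] at this
      simpa using this
    rw [this, pow_succ]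
    exact Submodule.mul_mem_mul (Submodule.pow_mem_pow _ hN n) (elem_mem x u v (n + 1))
  have hp : ∀ r, MvPolynomial.aeval y (MvPolynomial.psum ι K r) ∈ B ^ r := by
    intro r
    induction r using Nat.strong_induction_on with
    | _ r ih =>
      rcases Nat.eq_zero_or_pos r with rfl | hr
      · rw [pow_zero, MvPolynomial.psum_zero, map_natCast, Submodule.one_eq_range]
        exact ⟨(Fintype.card ι : K), by simp⟩
      · rw [MvPolynomial.psum_eq_mul_esymm_sub_sum ι K r hr, map_sub, map_sum]
        refine Submodule.sub_mem _ ?_ (Submodule.sum_mem _ fun a ha => ?_)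
        · have : MvPolynomial.aeval y ((-1) ^ (r + 1) * (r : MvPolynomial ι K) *
              MvPolynomial.esymm ι K r) =
              ((-1) ^ (r + 1) * (r : K)) • MvPolynomial.aeval y (MvPolynomial.esymm ι K r) := by
            simp [Algebra.smul_def]
          rw [this]
          exact Submodule.smul_mem _ _ (he r hr)
        · simp only [Finset.mem_filter, Set.mem_Ioo] at ha
          obtain ⟨h1, h2, h3⟩ := ha
          have h1 : a.1 + a.2 = r := Finset.HasAntidiagonal.mem_antidiagonal.1 h1
          have : MvPolynomial.aeval y ((-1) ^ a.1 * MvPolynomial.esymm ι K a.1 *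
              MvPolynomial.psum ι K a.2) =
              ((-1 : K) ^ a.1) • (MvPolynomial.aeval y (MvPolynomial.esymm ι K a.1) *
                MvPolynomial.aeval y (MvPolynomial.psum ι K a.2)) := by
            simp [Algebra.smul_def, mul_assoc]
          rw [this, ← h1, pow_add]
          exact Submodule.smul_mem _ _ (Submodule.mul_mem_mul (he _ h2) (ih _ (by omega)))
  have := hp c
  simpa [MvPolynomial.psum, hy] using this

end Vale.Agent.P181
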