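import Mathlib

/-! Functoriality of Mathlib symmetric powers, and the Foulkes-Howe formula. -/

namespace Vale.Agent.P181

open scoped TensorProduct

section
variable {K : Type} [Field K]
variable {M : Type*} [AddCommGroup M] [Module K M]
variable {N : Type*} [AddCommGroup N] [Module K N]

/-- The product `v₁ v₂ ⋯ vₙ` in the symmetric power `Sym^n M`. -/
noncomputable def sprod (K : Type) [Field K] {M : Type*} [AddCommGroup M] [Module K M] {n : ℕ}
    (v : Fin n → M) : SymmetricPower K (Fin n) M :=
  SymmetricPower.tprod K v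

/-- A symmetric multilinear map `M^n → N` factors through `Sym^n M`. -/
theorem exists_symLift {n : ℕ} (f : MultilinearMap K (fun _ : Fin n => M) N)
    (hf : ∀ (e : Equiv.Perm (Fin n)) (v : Fin n → M), f (fun i => v (e i)) = f v) :
    ∃ G : SymmetricPower K (Fin n) M →ₗ[K] N, ∀ v, G (SymmetricPower.tprod K v) = f v :=
  ⟨{ toFun := AddCon.lift _ (PiTensorProduct.lift f).toAddMonoidHom (by
        refine AddCon.addConGen_le.2 ?_
        rintro _ _ ⟨e, v⟩
        simp [AddCon.ker_rel, hf])
     map_add' := map_add _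
     map_smul' := fun r x =>
      AddCon.induction_on x fun y => (PiTensorProduct.lift f).map_smul r y },
    fun v => PiTensorProduct.lift.tprod v⟩

theorem exists_symMap (n : ℕ) (g : M →ₗ[K] N) :
    ∃ G : SymmetricPower K (Fin n) M →ₗ[K] SymmetricPower K (Fin n) N,
      ∀ v : Fin n → M, G (sprod K v) = sprod K fun i => g (v i) :=
  exists_symLift ((SymmetricPower.tprod K).compLinearMap fun _ => g)
    fun e v => SymmetricPower.tprod_equiv e fun i => g (v i)

/-- `Sym^n g : Sym^n M → Sym^n N`, the (unique) linear map sending `v₁ ⋯ vₙ` to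
`(g v₁) ⋯ (g vₙ)`. -/
noncomputable def symMap (n : ℕ) (g : M →ₗ[K] N) :
    SymmetricPower K (Fin n) M →ₗ[K] SymmetricPower K (Fin n) N :=
  Classical.choose (exists_symMap n g)

theorem symMap_sprod (n : ℕ) (g : M →ₗ[K] N) (v : Fin n → M) :
    symMap n g (sprod K v) = sprod K fun i => g (v i) :=
  Classical.choose_spec (exists_symMap n g) v

end

variable (K : Type) [Field K] (a b : ℕ) (V : Type*) [AddCommGroup V] [Module K V]

/-- The action `Sym^a (Sym^b g)` of `g ∈ GL(V)` on `Sym^a (Sym^b V)`. -/
noncomputable def glAct (g : V ≃ₗ[K] V) :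
    SymmetricPower K (Fin a) (SymmetricPower K (Fin b) V) →
      SymmetricPower K (Fin a) (SymmetricPower K (Fin b) V) :=
  symMap a (symMap b g.toLinearMap)

/-- `Ψ` satisfies the formula defining the canonical Foulkes-Howe map
`Ψ_{a,b,V} : Sym^a (Sym^b V) → Sym^b (Sym^a V)`: arrange the `a b` vectors in `a` rows of length
`b`, permute within rows, multiply along columns. -/
def IsFoulkesHowe (Ψ : SymmetricPower K (Fin a) (SymmetricPower K (Fin b) V) →
      SymmetricPower K (Fin b) (SymmetricPower K (Fin a) V)) : Prop :=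
  ∀ v : Fin a → Fin b → V,
    Ψ (sprod K fun i => sprod K fun j => v i j) =
      ∑ σ : Fin a → Equiv.Perm (Fin b), sprod K fun j => sprod K fun i => v i (σ i j)

/-- `Ψ` commutes with the action of every `g ∈ GL(V)`. -/
def IsGLEquivariant (Ψ : SymmetricPower K (Fin a) (SymmetricPower K (Fin b) V) →
      SymmetricPower K (Fin b) (SymmetricPower K (Fin a) V)) : Prop :=
  ∀ (g : V ≃ₗ[K] V) x, Ψ (glAct K a b V g x) = glAct K b a V g (Ψ x)

end Vale.Agent.P181
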